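import Mathlib

/-!
# P091, heart, row H1: greedy exhaustion, abstract form

`exhaust`: a finite set is cut greedily into pieces (each piece takes a fraction `c j` of the
current rest) until the rest is `Done`; the entropy of the resulting partition is at most
`∑ mass(piece) * (log (1 / c level) + 1)`.
-/

open Finset

namespace Vale.Agent.P091.Heart.H350

variable {Y : Type*} [DecidableEq Y]

/-- mass of a finite set -/
noncomputable def ms (f : Y → ℝ) (S : Finset Y) : ℝ := ∑ y ∈ S, f y

theorem ms_nonneg {f : Y → ℝ} (hf : ∀ y, 0 ≤ f y) (S : Finset Y) : 0 ≤ ms f S :=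
  sum_nonneg fun y _ => hf y

theorem ms_sdiff (f : Y → ℝ) {S T : Finset Y} (h : T ⊆ S) : ms f (S \ T) = ms f S - ms f T := by
  unfold ms
  rw [eq_sub_iff_add_eq, sum_sdiff h]

theorem ms_mono {f : Y → ℝ} (hf : ∀ y, 0 ≤ f y) {S T : Finset Y} (h : T ⊆ S) : ms f T ≤ ms f S :=
  sum_le_sum_of_subset_of_nonneg h fun y _ _ => hf y

/-- the total mass of a list of pieces -/
noncomputable def lms (f : Y → ℝ) {α : Type*} (L : List (α × Finset Y)) : ℝ :=
  (L.map fun q => ms f q.2).sum

/-- `m log (M / m)` -/
noncomputable def ent (M m : ℝ) : ℝ := m * Real.log (M / m)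

/-- scaling the reference mass -/
theorem ent_shift {M M' m : ℝ} (hM : 0 < M) (hM' : 0 < M') : 
    ent M m = ent M' m + m * Real.log (M / M') := by
  unfold ent
  rcases eq_or_ne m 0 with rfl | hm
  · simp
  · rw [Real.log_div hM.ne' hm, Real.log_div hM'.ne' hm, Real.log_div hM.ne' hM'.ne']
    ring

/-- one cut: the binary entropy of the cut -/
theorem cut_le {M m c : ℝ} (hm : 0 < m) (hmM : m ≤ M) (hc : 0 < c) (h : c * M ≤ m) :
    ent M m + (M - m) * Real.log (M / (M - m)) ≤ m * (Real.log (1 / c) + 1) := by
  have hM : 0 < M := hm.trans_le hmM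
  have h1 : ent M m ≤ m * Real.log (1 / c) := by
    unfold ent
    refine mul_le_mul_of_nonneg_left ?_ hm.le
    refine Real.log_le_log (by positivity) ?_
    rw [div_le_div_iff₀ hm hc]
    linarith
  have h2 : (M - m) * Real.log (M / (M - m)) ≤ m := by
    rcases eq_or_lt_of_le hmM with h | h
    · rw [h, sub_self, zero_mul]
      exact hM.le
    · have hp : 0 < M - m := by linarith
      have h3 : Real.log (M / (M - m)) ≤ M / (M - m) - 1 :=
        Real.log_le_sub_one_of_pos (by positivity)
      have h4 : M / (M - m) - 1 = m / (M - m) := by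
        field_simp
        ring
      rw [h4] at h3
      calc (M - m) * Real.log (M / (M - m)) ≤ (M - m) * (m / (M - m)) :=
            mul_le_mul_of_nonneg_left h3 hp.le
        _ = m := by field_simp
  linarith

/-- GREEDY EXHAUSTION. `Done` = stopping rule for the rest, `Piece a Z` = the property of a piece
with data `a`, `c a` = fraction of the current rest taken by a piece with data `a`. -/
theorem exhaust {α : Type*} (f : Y → ℝ) (hf : ∀ y, 0 ≤ f y) (S : Finset Y) (c : α → ℝ)
    (hc : ∀ a, 0 < c a) (Piece : α → Finset Y → Finset Y → Prop) (Done : Finset Y → Prop)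
    (step : ∀ Z ⊆ S, ¬ Done Z → ∃ (a : α) (Z' : Finset Y), Z' ⊆ Z ∧ 0 < ms f Z' ∧
      c a * ms f Z ≤ ms f Z' ∧ Piece a Z Z') :
    ∀ Z ⊆ S, ∃ (L : List (α × Finset Y)) (rest : Finset Y),
      rest ⊆ Z ∧ Done rest ∧
      (∀ q ∈ L, q.2 ⊆ Z ∧ Disjoint q.2 rest ∧ 0 < ms f q.2 ∧
        ∃ W ⊆ Z, q.2 ⊆ W ∧ c q.1 * ms f W ≤ ms f q.2 ∧ Piece q.1 W q.2) ∧
      L.Pairwise (fun q q' => Disjoint q.2 q'.2) ∧
      (∀ y ∈ Z, y ∈ rest ∨ ∃ q ∈ L, y ∈ q.2) ∧
      lms f L + ms f rest = ms f Z ∧
      (L.map fun q => ent (ms f Z) (ms f q.2)).sum + ent (ms f Z) (ms f rest)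
        ≤ (L.map fun q => ms f q.2 * (Real.log (1 / c q.1) + 1)).sum := by
  intro Z
  induction Z using Finset.strongInduction with
  | H Z ih =>
    intro hZ
    by_cases hD : Done Z
    · refine ⟨[], Z, subset_rfl, hD, by simp, List.Pairwise.nil, fun y hy => Or.inl hy, ?_, ?_⟩
      · simp [lms]
      · simp only [List.map_nil, List.sum_nil, zero_add]
        unfold ent
        rcases eq_or_ne (ms f Z) 0 with h | h
        · rw [h, zero_mul]
        · rw [div_self h, Real.log_one, mul_zero]
    · obtain ⟨a, Z', hZ', hpos, hfrac, hP⟩ := step Z hZ hD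
      have hne : Z'.Nonempty := by
        rw [Finset.nonempty_iff_ne_empty]
        rintro rfl
        simp [ms] at hpos
      have hlt : Z \ Z' ⊂ Z := Finset.sdiff_ssubset hZ' hne
      obtain ⟨L, rest, h1, h2, h3, h4, h5, h6, h7⟩ := ih (Z \ Z') hlt (hlt.subset.trans hZ)
      have hsub : Z \ Z' ⊆ Z := hlt.subset
      refine ⟨(a, Z') :: L, rest, h1.trans hsub, h2, ?_, ?_, ?_, ?_, ?_⟩
      · intro q hq
        rw [List.mem_cons] at hq
        rcases hq with rfl | hq
        · refine ⟨hZ', ?_, hpos, Z, subset_rfl, hZ', hfrac, hP⟩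
          exact (Finset.disjoint_sdiff).mono_right h1
        · obtain ⟨q1, q2, q3, W, w1, w2⟩ := h3 q hq
          exact ⟨q1.trans hsub, q2, q3, W, w1.trans hsub, w2⟩
      · rw [List.pairwise_cons]
        refine ⟨fun q hq => ?_, h4⟩
        exact (Finset.disjoint_sdiff).mono_right (h3 q hq).1
      · intro y hy
        by_cases hy' : y ∈ Z'
        · exact Or.inr ⟨(a, Z'), List.mem_cons_self, hy'⟩
        · rcases h5 y (Finset.mem_sdiff.2 ⟨hy, hy'⟩) with h | ⟨q, hq, hyq⟩
          · exact Or.inl h
          · exact Or.inr ⟨q, List.mem_cons_of_mem _ hq, hyq⟩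
      · have e := ms_sdiff f hZ'
        unfold lms at h6 ⊢
        rw [List.map_cons, List.sum_cons]
        linarith
      · have e := ms_sdiff f hZ'
        have hZpos : 0 < ms f Z := hpos.trans_le (ms_mono hf hZ')
        have hle : ms f Z' ≤ ms f Z := ms_mono hf hZ'
        have hcut := cut_le hpos hle (hc a) hfrac
        rw [List.map_cons, List.sum_cons, List.map_cons, List.sum_cons]
        simp only
        rcases eq_or_lt_of_le (ms_nonneg hf (Z \ Z')) with h0 | h0
        · -- the rest has mass zero: everything below is zero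
          have hr0 : ms f rest = 0 :=
            le_antisymm (h0 ▸ ms_mono hf h1) (ms_nonneg hf _)
          have hq0 : ∀ q ∈ L, ms f q.2 = 0 := fun q hq =>
            le_antisymm (h0 ▸ ms_mono hf (h3 q hq).1) (ms_nonneg hf _)
          have hLnil : L = [] := by
            rw [List.eq_nil_iff_forall_not_mem]
            intro q hq
            have := (h3 q hq).2.2.1
            rw [hq0 q hq] at this
            exact lt_irrefl _ this
          rw [hLnil, hr0]
          have e2 : ent (ms f Z) 0 = 0 := by unfold ent; rw [zero_mul]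
          simp only [List.map_nil, List.sum_nil, add_zero, e2]
          rw [← h0] at e
          have e3 : (ms f Z - ms f Z') * Real.log (ms f Z / (ms f Z - ms f Z')) = 0 := by
            rw [← e, zero_mul]
          linarith
        · -- shift of the reference mass
          have hs : ∀ m : ℝ, ent (ms f Z) m
              = ent (ms f (Z \ Z')) m + m * Real.log (ms f Z / ms f (Z \ Z')) :=
            fun m => ent_shift hZpos h0
          have hsum : (L.map fun q => ent (ms f Z) (ms f q.2)).sum
              = (L.map fun q => ent (ms f (Z \ Z')) (ms f q.2)).sum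
                + lms f L * Real.log (ms f Z / ms f (Z \ Z')) := by
            unfold lms
            rw [← List.sum_map_mul_right, ← List.sum_map_add]
            congr 1
            exact List.map_congr_left fun q _ => hs _
          rw [hsum, hs (ms f rest)]
          have e4 : lms f L * Real.log (ms f Z / ms f (Z \ Z'))
              + ms f rest * Real.log (ms f Z / ms f (Z \ Z'))
              = (ms f Z - ms f Z') * Real.log (ms f Z / (ms f Z - ms f Z')) := by
            rw [← add_mul, h6, e]
          linarith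

end Vale.Agent.P091.Heart.H350
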