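import Vale.Agent.P091.HEART.H350.Greedy
import Vale.Agent.P091.HEART.H896.Unit

/-!
# P091, heart, row H1 (final, node-group form): exhaustion by units
-/

set_option autoImplicit false

open Finset Real
open Vale.Agent.P065.Ent

noncomputable section

namespace Vale.Agent.P091.Heart.H350

open Vale.Agent.P091.AD Vale.Agent.P091.Heart.H896

variable {G : Type} [AddCommGroup G] [Fintype G]

open Classical in
/-- the normalised law of `w` on `Z` -/
def law (w : G → ℝ) (Z : Finset G) (y : G) : ℝ := if y ∈ Z then w y / ms w Z else 0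

omit [AddCommGroup G] in
theorem law_isProb {w : G → ℝ} (hw : ∀ y, 0 ≤ w y) {Z : Finset G} (hZ : 0 < ms w Z) :
    IsProb (law w Z) := by
  classical
  refine ⟨fun y => ?_, ?_⟩
  · unfold law
    split_ifs
    · exact div_nonneg (hw y) hZ.le
    · exact le_rfl
  · unfold law
    rw [← Finset.sum_filter, Finset.filter_mem_eq_inter, Finset.univ_inter, ← Finset.sum_div]
    exact div_self hZ.ne'

/-- data of a piece: the level, the set of letters, the labelled law, the centre, the noise -/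
structure UData (G : Type) [AddCommGroup G] [Fintype G] where
  j : ℕ
  A : Finset (AddChar G ℂ)
  lam : Law (AddChar G ℂ)
  y0 : G
  ρ : G → ℝ

open Classical in
/-- the event of a unit inside `W` -/
def UData.ev (u : UData G) (σ : ℝ) (W : Finset G) : Finset G :=
  W.filter fun y => σ ^ 4 / 4 ≤ u.lam.m (y - u.y0)

/-- the bias of the letter `a` for the normalised law of `w` on `Z` -/
def bias (w : G → ℝ) (Z : Finset G) (a : AddChar G ℂ) : ℝ := ‖∑ y, (law w Z y : ℂ) * a y‖

open Classical in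
/-- mass of the biased letters of `B` -/
def bmass (w : G → ℝ) (Z : Finset G) (α : AddChar G ℂ → ℝ) (B : Finset (AddChar G ℂ)) (σ : ℝ) : ℝ :=
  ∑ a ∈ B.filter (fun a => σ ≤ bias w Z a), α a

/-- what is known about a piece `Z'` cut out of the rest `W` -/
structure IsPiece {J : Type} [Fintype J] (w : G → ℝ) (lev : Finset ℕ) (σ θ : ℕ → ℝ) (R κ : ℝ)
    (μJ : J → ℝ) (RJ : J → AddChar G ℂ) (B : ℕ → Finset (AddChar G ℂ)) (u : UData G)
    (W Z' : Finset G) : Prop where
  lev : u.j ∈ lev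
  sub : u.A ⊆ B u.j
  unit : IsUnit12 u.A (law w W) (σ u.j) R κ u.lam u.y0 u.ρ
  eq : Z' = u.ev (σ u.j) W
  growth : H μJ RJ + θ u.j * R / 4
        ≤ H (fun v : J × u.lam.Lt => μJ v.1 * u.lam.beta v.2) (fun v => RJ v.1 + u.lam.N v.2)

/-- **H1, one node.**  `w` weights on the node group, `wmin` the mass below which the rest is
abandoned, `lev` the levels, `σ j`, `θ j` bias and lightness of the level `j`, `α j` the law of the
waiting letters, `B j` the unexplained letters. -/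
theorem exhaust_node (hU : UNIT) : ∃ c C C1 R0 : ℝ, 0 < c ∧ 0 < C ∧ 0 < C1 ∧ 1 < R0 ∧
    ∀ (G : Type) [AddCommGroup G] [Fintype G] (w : G → ℝ) (R wmin : ℝ) (lev : Finset ℕ)
      (σ θ : ℕ → ℝ) (J : Type) [Fintype J] (μJ : J → ℝ) (RJ : J → AddChar G ℂ)
      (α : ℕ → AddChar G ℂ → ℝ) (B : ℕ → Finset (AddChar G ℂ)),
      R0 ≤ R → (∀ y, 0 ≤ w y) → 0 < wmin → (∀ y, (Fintype.card G : ℝ) * w y ≤ exp R * wmin) →
      (∀ j ∈ lev, (log R) ^ (-c) ≤ σ j) → (∀ j ∈ lev, C1 * (log R) ^ (-c) ≤ θ j) →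
      IsProb μJ → (∀ j ∈ lev, ∀ a, 0 ≤ α j a) →
      (∀ j ∈ lev, ∀ a ∈ B j, Unexpl μJ RJ (α j) (θ j * R) a) →
      ∀ Z : Finset G, ∃ (L : List (UData G × Finset G)) (rest : Finset G),
        rest ⊆ Z ∧
        (ms w rest < wmin ∨ ∀ j ∈ lev, bmass w rest (α j) (B j) (σ j) < exp (-(θ j * R / 2))) ∧
        (∀ q ∈ L, q.2 ⊆ Z ∧ Disjoint q.2 rest ∧ 0 < ms w q.2 ∧ ∃ W ⊆ Z, q.2 ⊆ W ∧
          wmin ≤ ms w W ∧ σ q.1.j ^ 2 / 2 * ms w W ≤ ms w q.2 ∧
          IsPiece w lev σ θ R (kp c C R) μJ RJ B q.1 W q.2) ∧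
        L.Pairwise (fun q q' => Disjoint q.2 q'.2) ∧
        (∀ y ∈ Z, y ∈ rest ∨ ∃ q ∈ L, y ∈ q.2) ∧
        lms w L + ms w rest = ms w Z ∧
        (L.map fun q => ent (ms w Z) (ms w q.2)).sum + ent (ms w Z) (ms w rest)
          ≤ (L.map fun q => ms w q.2 * (Real.log (2 / σ q.1.j ^ 2) + 1)).sum := by
  classical
  obtain ⟨c, C, C1, R0, hc, hC, hC1, hR0, hmain⟩ := hU
  refine ⟨c, C, C1, R0, hc, hC, hC1, hR0, ?_⟩
  intro G _ _ w R wmin lev σ θ J _ μJ RJ α B hR hw hwmin hdens hσ hθ hJ hα hB Z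
  have hlogR : 0 < log R := Real.log_pos (by linarith)
  have hσpos : ∀ j ∈ lev, 0 < σ j := fun j hj =>
    lt_of_lt_of_le (Real.rpow_pos_of_pos hlogR _) (hσ j hj)
  -- the fraction
  set fr : UData G → ℝ := fun u => if u.j ∈ lev then σ u.j ^ 2 / 2 else 1 with hfr
  have hfrpos : ∀ u, 0 < fr u := by
    intro u
    simp only [hfr]
    split_ifs with h
    · have := hσpos _ h
      positivity
    · exact one_pos
  set Done : Finset G → Prop := fun Y => ms w Y < wmin ∨
    ∀ j ∈ lev, bmass w Y (α j) (B j) (σ j) < exp (-(θ j * R / 2)) with hDone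
  set Pc : UData G → Finset G → Finset G → Prop := fun u W Z' =>
    wmin ≤ ms w W ∧ IsPiece w lev σ θ R (kp c C R) μJ RJ B u W Z' with hPc
  have step : ∀ Y ⊆ Z, ¬ Done Y → ∃ (u : UData G) (Z' : Finset G), Z' ⊆ Y ∧ 0 < ms w Z' ∧
      fr u * ms w Y ≤ ms w Z' ∧ Pc u Y Z' := by
    intro Y _ hY
    simp only [hDone, not_or, not_lt, not_forall] at hY
    obtain ⟨hYm, j, hj, hbig⟩ := hY
    have hYpos : 0 < ms w Y := hwmin.trans_le hYm
    have hprob := law_isProb hw hYpos
    have hden : ∀ y, (Fintype.card G : ℝ) * law w Y y ≤ exp R := by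
      intro y
      unfold law
      split_ifs
      · rw [mul_div_assoc', div_le_iff₀ hYpos]
        refine (hdens y).trans ?_
        exact mul_le_mul_of_nonneg_left hYm (exp_pos R).le
      · rw [mul_zero]
        exact (exp_pos R).le
    obtain ⟨A', lam, y0, ρ, hA', hunit, hgrow⟩ := hmain G
      ((B j).filter (fun a => σ j ≤ bias w Y a)) (law w Y) (σ j) R (θ j) J μJ RJ (α j) hR (hσ j hj)
      (hθ j hj) hprob hden (fun a ha => (mem_filter.1 ha).2) hJ (hα j hj)
      (fun a ha => hB j hj a (mem_filter.1 ha).1) hbig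
    set u : UData G := ⟨j, A', lam, y0, ρ⟩ with hu
    have hms : ms w (u.ev (σ j) Y) = ms w Y *
        ∑ y, (if σ j ^ 4 / 4 ≤ lam.m (y - y0) then law w Y y else 0) := by
      unfold ms UData.ev law
      rw [Finset.mul_sum, Finset.sum_filter, ← Finset.sum_subset (Finset.subset_univ Y)]
      · refine Finset.sum_congr rfl fun y hy => ?_
        by_cases h : σ j ^ 4 / 4 ≤ lam.m (y - y0)
        · rw [if_pos h, if_pos h, if_pos hy]
          have hne : ms w Y ≠ 0 := hYpos.ne'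
          show w y = ms w Y * (w y / ms w Y)
          rw [mul_div_assoc', mul_comm, mul_div_assoc, div_self hne, mul_one]
        · rw [if_neg h, if_neg h, mul_zero]
      · intro y _ hy
        rw [if_neg hy]
        simp
    have hev := hunit.event
    have hfrac : σ j ^ 2 / 2 * ms w Y ≤ ms w (u.ev (σ j) Y) := by
      rw [hms, mul_comm]
      exact mul_le_mul_of_nonneg_left hev hYpos.le
    have hpos : 0 < ms w (u.ev (σ j) Y) := by
      have := hσpos j hj
      exact lt_of_lt_of_le (by positivity) hfrac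
    refine ⟨u, u.ev (σ j) Y, Finset.filter_subset _ _, hpos, ?_, hYm, ?_⟩
    · simp only [hfr]
      rw [if_pos hj]
      exact hfrac
    · exact ⟨hj, hA'.trans (Finset.filter_subset _ _), hunit, rfl, hgrow⟩
  obtain ⟨L, rest, h1, h2, h3, h4, h5, h6, h7⟩ :=
    exhaust w hw Z fr hfrpos Pc Done step Z subset_rfl
  have hjL : ∀ q ∈ L, fr q.1 = σ q.1.j ^ 2 / 2 := by
    intro q hq
    obtain ⟨_, _, _, W, _, _, _, hp⟩ := h3 q hq
    simp only [hfr]
    rw [if_pos hp.2.lev]
  refine ⟨L, rest, h1, h2, ?_, h4, h5, h6, ?_⟩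
  · intro q hq
    obtain ⟨a1, a2, a3, W, b1, b2, b3, b4⟩ := h3 q hq
    refine ⟨a1, a2, a3, W, b1, b2, b4.1, ?_, b4.2⟩
    rw [← hjL q hq]
    exact b3
  · refine h7.trans (le_of_eq ?_)
    congr 1
    refine List.map_congr_left fun q hq => ?_
    rw [hjL q hq, one_div, inv_div]

end Vale.Agent.P091.Heart.H350
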